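import Vale.Agent.H2.P064.Boot

/-! A spread bound for orbits of a finite group with a single logarithm. -/

namespace Vale.Agent.H4.P064

open Finset Classical Vale.Agent.H2.P064

set_option linter.unusedSectionVars false

section Act
variable {X G : Type} [Fintype X] [Group G] [Fintype G] (a : G →* Equiv.Perm X)

noncomputable def v (H F : Finset X) (g : G) : ℝ := if im a g F ⊆ H then 1 else 0

noncomputable def u (F : Finset X) (g : G) (K : Finset X) : ℝ := if K ⊆ im a g F then 1 else 0

noncomputable def AA (H F : Finset X) (m : ℕ) : ℝ :=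
  ∑ g : G, ∑ h : G, v a H F g * v a H F h * (if (im a g F ∩ im a h F).card = m then 1 else 0)

noncomputable def BB (F : Finset X) (m : ℕ) : ℝ :=
  ∑ K ∈ powersetCard m (univ : Finset X), (∑ g : G, u a F g K) ^ 2

noncomputable def rr (H F K : Finset X) : ℝ := ∑ g : G, v a H F g * u a F g K

theorem sum_v (H F : Finset X) : ∑ g : G, v a H F g = Fintype.card G * P a H F := by
  rw [P_eq]
  have := cardG_pos (G := G)
  unfold v
  field_simp

theorem v_nonneg (H F : Finset X) (g : G) : 0 ≤ v a H F g := by unfold v; split_ifs <;> norm_num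
theorem u_nonneg (F K : Finset X) (g : G) : 0 ≤ u a F g K := by unfold u; split_ifs <;> norm_num

theorem v_mul (H F : Finset X) (g h : G) :
    v a H F g * v a H F (g * h) = v a H (F ∪ im a h F) g := by
  unfold v
  have : im a g (F ∪ im a h F) ⊆ H ↔ (im a g F ⊆ H ∧ im a (g * h) F ⊆ H) := by
    rw [im_union, im_mul, Finset.union_subset_iff]
  by_cases h1 : im a g F ⊆ H <;> by_cases h2 : im a (g * h) F ⊆ H <;> simp [this, h1, h2]

theorem card_inter_im (F : Finset X) (g h : G) :
    (im a g F ∩ im a (g * h) F).card = (F ∩ im a h F).card := by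
  rw [im_mul, ← im_inter, card_im]

theorem cnt (S : Finset X) (m : ℕ) :
    ∑ K ∈ powersetCard m (univ : Finset X), (if K ⊆ S then (1:ℝ) else 0) = (S.card.choose m : ℝ) := by
  rw [Finset.sum_boole, ← Finset.card_powersetCard]
  congr 2
  ext K
  simp only [mem_filter, mem_powersetCard, Finset.subset_univ, true_and]
  tauto

theorem AA_eq (H F : Finset X) (m : ℕ) : AA a H F m =
    ∑ h : G, (if (F ∩ im a h F).card = m then (1:ℝ) else 0) *
      (Fintype.card G * P a H (F ∪ im a h F)) := by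
  unfold AA
  have h1 : ∀ g : G, ∑ h : G, v a H F g * v a H F h *
      (if (im a g F ∩ im a h F).card = m then (1:ℝ) else 0) =
      ∑ h : G, v a H (F ∪ im a h F) g * (if (F ∩ im a h F).card = m then (1:ℝ) else 0) := by
    intro g
    symm
    apply Fintype.sum_equiv (Equiv.mulLeft g)
    intro h
    have e1 := card_inter_im a F g h
    have e2 := v_mul a H F g h
    simp only [Equiv.coe_mulLeft, e1, e2]
  rw [Finset.sum_congr rfl (fun g _ => h1 g), Finset.sum_comm]
  apply Finset.sum_congr rfl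
  intro h _
  rw [← Finset.sum_mul, sum_v, mul_comm]

theorem BB_eq (F : Finset X) (m : ℕ) : BB a F m =
    Fintype.card G * ∑ h : G, (((F ∩ im a h F).card.choose m : ℕ) : ℝ) := by
  unfold BB
  have h1 : ∀ K : Finset X, (∑ g : G, u a F g K) ^ 2 =
      ∑ g : G, ∑ h : G, (if K ⊆ im a g F ∩ im a (g * h) F then (1:ℝ) else 0) := by
    intro K
    rw [sq, Finset.sum_mul_sum]
    apply Finset.sum_congr rfl
    intro g _
    symm
    apply Fintype.sum_equiv (Equiv.mulLeft g)
    intro h
    simp only [Equiv.coe_mulLeft, Finset.subset_inter_iff, u]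
    by_cases h1 : K ⊆ im a g F <;> by_cases h2 : K ⊆ im a (g * h) F <;> simp [h1, h2]
  rw [Finset.sum_congr rfl (fun K _ => h1 K), Finset.sum_comm]
  rw [Finset.sum_congr rfl (fun g _ => Finset.sum_comm)]
  rw [Finset.sum_congr rfl (fun g _ => Finset.sum_congr rfl (fun h _ => cnt _ m))]
  rw [Finset.sum_congr rfl (fun g _ => Finset.sum_congr rfl
    (fun h _ => by rw [card_inter_im]))]
  rw [Finset.sum_const, Finset.card_univ, nsmul_eq_mul]

theorem rr_sq (H F : Finset X) (m : ℕ) :
    ∑ K ∈ powersetCard m (univ : Finset X), (rr a H F K) ^ 2 =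
      ∑ j ∈ range (F.card + 1), (j.choose m : ℝ) * AA a H F j := by
  have h1 : ∀ K : Finset X, (rr a H F K) ^ 2 =
      ∑ g : G, ∑ h : G, (v a H F g * v a H F h) *
        (if K ⊆ im a g F ∩ im a h F then (1:ℝ) else 0) := by
    intro K
    unfold rr
    rw [sq, Finset.sum_mul_sum]
    apply Finset.sum_congr rfl
    intro g _
    apply Finset.sum_congr rfl
    intro h _
    simp only [Finset.subset_inter_iff, u]
    by_cases h1 : K ⊆ im a g F <;> by_cases h2 : K ⊆ im a h F <;> simp [h1, h2]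
  rw [Finset.sum_congr rfl (fun K _ => h1 K), Finset.sum_comm]
  rw [Finset.sum_congr rfl (fun g _ => Finset.sum_comm)]
  have h2 : ∀ g h : G, ∑ K ∈ powersetCard m (univ : Finset X), (v a H F g * v a H F h) *
        (if K ⊆ im a g F ∩ im a h F then (1:ℝ) else 0) =
      ∑ j ∈ range (F.card + 1), (j.choose m : ℝ) * (v a H F g * v a H F h *
        (if (im a g F ∩ im a h F).card = j then (1:ℝ) else 0)) := by
    intro g h
    rw [← Finset.mul_sum, cnt]
    rw [Finset.sum_eq_single (im a g F ∩ im a h F).card]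
    · simp; ring
    · intro j _ hj
      rw [if_neg (Ne.symm hj)]; ring
    · intro hj
      exfalso; apply hj
      rw [Finset.mem_range]
      have := Finset.card_le_card (Finset.inter_subset_left (s₁ := im a g F) (s₂ := im a h F))
      rw [card_im] at this
      omega
  rw [Finset.sum_congr rfl (fun g _ => Finset.sum_congr rfl (fun h _ => h2 g h))]
  unfold AA
  simp_rw [Finset.mul_sum]
  rw [Finset.sum_congr rfl (fun g _ => Finset.sum_comm)]
  rw [Finset.sum_comm]

theorem sum_AA (H F : Finset X) :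
    ∑ j ∈ range (F.card + 1), AA a H F j = (Fintype.card G * P a H F) ^ 2 := by
  have h := rr_sq a H F 0
  simp only [Nat.choose_zero_right, Nat.cast_one, one_mul] at h
  rw [← h, Finset.powersetCard_zero, Finset.sum_singleton, ← sum_v]
  congr 1
  unfold rr u
  simp

theorem AA_nonneg (H F : Finset X) (m : ℕ) : 0 ≤ AA a H F m := by
  unfold AA
  refine Finset.sum_nonneg (fun g _ => Finset.sum_nonneg (fun h _ => ?_))
  have := v_nonneg a H F g
  have := v_nonneg a H F h
  split_ifs <;> positivity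

theorem BB_nonneg (F : Finset X) (m : ℕ) : 0 ≤ BB a F m := by
  unfold BB
  exact Finset.sum_nonneg (fun g _ => sq_nonneg _)

theorem AA_le (H F : Finset X) (m : ℕ) (w : ℕ → ℝ) (hw : ∀ U, P a H U ≤ w U.card)
    (hw0 : ∀ j, 0 ≤ w j) :
    AA a H F m ≤ w (2 * F.card - m) * BB a F m := by
  rw [AA_eq, BB_eq, ← mul_assoc, Finset.mul_sum]
  apply Finset.sum_le_sum
  intro h _
  have hG : (0:ℝ) < (Fintype.card G : ℝ) := cardG_pos
  by_cases h1 : (F ∩ im a h F).card = m
  · rw [if_pos h1, h1, Nat.choose_self]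
    have h5 : (F ∪ im a h F).card = 2 * F.card - m := by
      have := Finset.card_union_add_card_inter F (im a h F)
      rw [card_im] at this
      omega
    have := hw (F ∪ im a h F)
    rw [h5] at this
    push_cast
    nlinarith
  · rw [if_neg h1]
    have := hw0 (2 * F.card - m)
    simp only [zero_mul]
    positivity

theorem sum_rr (H F K : Finset X) :
    ∑ h : G, rr a H F (im a h K) = (Fintype.card G * P a H F) * ∑ g : G, u a F g K := by
  unfold rr
  rw [Finset.sum_comm, ← sum_v, Finset.sum_mul]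
  apply Finset.sum_congr rfl
  intro g _
  rw [← Finset.mul_sum]
  congr 1
  apply Fintype.sum_equiv ((Equiv.inv G).trans (Equiv.mulRight g))
  intro h
  have e1 : im a h K ⊆ im a g F ↔ K ⊆ im a (h⁻¹ * g) F := by rw [im_subset_iff, im_mul]
  simp only [Equiv.trans_apply, Equiv.inv_apply, Equiv.coe_mulRight, u]
  by_cases e2 : im a h K ⊆ im a g F
  · rw [if_pos e2, if_pos (e1.1 e2)]
  · rw [if_neg e2, if_neg (fun e3 => e2 (e1.2 e3))]

theorem rr_zero (H F K : Finset X) (h : ¬ K ⊆ H) : rr a H F K = 0 := by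
  unfold rr
  apply Finset.sum_eq_zero
  intro g _
  unfold v u
  by_cases h1 : im a g F ⊆ H
  · by_cases h2 : K ⊆ im a g F
    · exact absurd (h2.trans h1) h
    · simp [h2]
  · simp [h1]

theorem cs (H F K : Finset X) :
    (Fintype.card G * P a H F) ^ 2 * (∑ g : G, u a F g K) ^ 2 ≤
      (Fintype.card G * P a H K) * ∑ h : G, rr a H F (im a h K) ^ 2 := by
  rw [← mul_pow, ← sum_rr, ← sum_v]
  have h1 : ∑ h : G, rr a H F (im a h K) = ∑ h : G, v a H K h * rr a H F (im a h K) := by
    apply Finset.sum_congr rfl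
    intro h _
    unfold v
    by_cases h2 : im a h K ⊆ H
    · simp [h2]
    · simp [h2, rr_zero a H F _ h2]
  rw [h1]
  refine (Finset.sum_mul_sq_le_sq_mul_sq _ _ _).trans (le_of_eq ?_)
  congr 1
  apply Finset.sum_congr rfl
  intro h _
  unfold v
  split_ifs <;> norm_num

theorem key (H F : Finset X) (k : ℕ) (w : ℕ → ℝ) (hw : ∀ U, P a H U ≤ w U.card) :
    (Fintype.card G * P a H F) ^ 2 * BB a F k ≤
      (Fintype.card G : ℝ) ^ 2 * w k * ∑ j ∈ range (F.card + 1), (j.choose k : ℝ) * AA a H F j := by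
  have hG : (0:ℝ) < (Fintype.card G : ℝ) := cardG_pos
  rw [← rr_sq]
  unfold BB
  rw [Finset.mul_sum]
  have h1 : ∀ K ∈ powersetCard k (univ : Finset X),
      (Fintype.card G * P a H F) ^ 2 * (∑ g : G, u a F g K) ^ 2 ≤
      (Fintype.card G * w k) * ∑ h : G, rr a H F (im a h K) ^ 2 := by
    intro K hK
    refine (cs a H F K).trans ?_
    have h2 := hw K
    rw [(mem_powersetCard.1 hK).2] at h2
    have h3 : 0 ≤ ∑ h : G, rr a H F (im a h K) ^ 2 := Finset.sum_nonneg (fun h _ => sq_nonneg _)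
    apply mul_le_mul_of_nonneg_right _ h3
    exact mul_le_mul_of_nonneg_left h2 hG.le
  refine (Finset.sum_le_sum h1).trans (le_of_eq ?_)
  rw [← Finset.mul_sum, Finset.sum_comm]
  have h4 : ∀ h : G, ∑ K ∈ powersetCard k (univ : Finset X), rr a H F (im a h K) ^ 2 =
      ∑ K ∈ powersetCard k (univ : Finset X), rr a H F K ^ 2 := by
    intro h
    apply Finset.sum_bij (fun K _ => im a h K)
    · intro K hK
      rw [mem_powersetCard] at hK ⊢
      exact ⟨Finset.subset_univ _, by rw [card_im]; exact hK.2⟩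
    · intro K _ K' _ hKK
      have := congrArg (im a h⁻¹) hKK
      rwa [im_inv_im, im_inv_im] at this
    · intro K hK
      refine ⟨im a h⁻¹ K, ?_, by rw [im_im_inv]⟩
      rw [mem_powersetCard] at hK ⊢
      exact ⟨Finset.subset_univ _, by rw [card_im]; exact hK.2⟩
    · intro K _; rfl
  rw [Finset.sum_congr rfl (fun h _ => h4 h), Finset.sum_const, Finset.card_univ, nsmul_eq_mul]
  ring

theorem BB_le (q : ℝ) (hq : 0 < q) (F : Finset X) (hF : Hyp a q F) (k : ℕ) :
    BB a F k ≤ 2 * (Fintype.card G : ℝ) ^ 2 * (F.card.choose k : ℝ) ^ 2 * q ^ k := by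
  have hG : (0:ℝ) < (Fintype.card G : ℝ) := cardG_pos
  rw [BB_eq]
  have h1 : ∑ h : G, (((F ∩ im a h F).card.choose k : ℕ) : ℝ) =
      ∑ J ∈ powersetCard k F, Fintype.card G * P a F J := by
    have h2 : ∀ h : G, (((F ∩ im a h F).card.choose k : ℕ) : ℝ) =
        ∑ J ∈ powersetCard k F, v a F J h⁻¹ := by
      intro h
      rw [← Finset.card_powersetCard]
      unfold v
      rw [Finset.sum_boole]
      congr 2
      ext J
      simp only [mem_filter, mem_powersetCard, Finset.subset_inter_iff]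
      rw [im_subset_iff, inv_inv]
      tauto
    rw [Finset.sum_congr rfl (fun h _ => h2 h), Finset.sum_comm]
    apply Finset.sum_congr rfl
    intro J _
    rw [← sum_v]
    apply Fintype.sum_equiv (Equiv.inv G)
    intro h; simp
  rw [h1]
  have h3 : ∀ J ∈ powersetCard k F, Fintype.card G * P a F J ≤
      Fintype.card G * (2 * (F.card.choose k : ℝ) * q ^ k) := by
    intro J hJ
    rw [mem_powersetCard] at hJ
    have := P_le_choose a q hq F J hF hJ.1
    rw [hJ.2] at this
    exact mul_le_mul_of_nonneg_left this hG.le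
  have h4 := Finset.sum_le_sum h3
  rw [Finset.sum_const, card_powersetCard, nsmul_eq_mul] at h4
  have h5 := mul_le_mul_of_nonneg_left h4 hG.le
  refine h5.trans (le_of_eq ?_)
  ring

end Act

theorem geo (y : ℝ) (hy0 : 0 < y) (hy : y ≤ 1 / 2) (k N : ℕ) :
    ∑ j ∈ range N, (j.choose k : ℝ) * y ^ j ≤ y ^ k * Real.exp (2 * (k + 1) * y) := by
  have h1 : ∑ j ∈ range N, (j.choose k : ℝ) * y ^ j ≤
      ∑ j ∈ range (k + N), (j.choose k : ℝ) * y ^ j := by
    apply Finset.sum_le_sum_of_subset_of_nonneg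
    · intro j hj
      rw [Finset.mem_range] at hj ⊢
      omega
    · intro j _ _; positivity
  refine h1.trans ?_
  rw [Finset.sum_range_add]
  have h2 : ∑ j ∈ range k, (j.choose k : ℝ) * y ^ j = 0 := by
    apply Finset.sum_eq_zero
    intro j hj
    rw [Finset.mem_range] at hj
    rw [Nat.choose_eq_zero_of_lt hj]
    simp
  rw [h2, zero_add]
  have h3 : ∑ i ∈ range N, ((k + i).choose k : ℝ) * y ^ (k + i) =
      y ^ k * ∑ i ∈ range N, ((i + k).choose k : ℝ) * y ^ i := by
    rw [Finset.mul_sum]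
    apply Finset.sum_congr rfl
    intro i _
    rw [pow_add, add_comm k i]
    ring
  rw [h3]
  apply mul_le_mul_of_nonneg_left _ (by positivity)
  have hn : ‖y‖ < 1 := by rw [Real.norm_eq_abs, abs_of_pos hy0]; linarith
  have h4 := hasSum_choose_mul_geometric_of_norm_lt_one (𝕜 := ℝ) k hn
  have h5 := sum_le_hasSum (range N) (fun i _ => by positivity) h4
  refine h5.trans ?_
  have h6 : 1 / (1 - y) ≤ Real.exp (2 * y) := by
    have h7 := Real.add_one_le_exp (2 * y)
    have h8 : 0 < 1 - y := by linarith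
    rw [div_le_iff₀ h8]
    nlinarith
  have h9 : 1 / (1 - y) ^ (k + 1) = (1 / (1 - y)) ^ (k + 1) := by rw [one_div_pow]
  rw [h9]
  have h10 : 0 < 1 / (1 - y) := by
    have h8 : 0 < 1 - y := by linarith
    positivity
  refine (pow_le_pow_left₀ h10.le h6 (k + 1)).trans (le_of_eq ?_)
  rw [← Real.exp_nat_mul]
  congr 1
  push_cast; ring

/-- the weights -/
noncomputable def gg (q x κ M : ℝ) (m : ℕ) : ℝ :=
  q ^ m * Real.exp (x * m + κ * (m * (Real.log M - Real.log m)))

theorem gg_pos (q x κ M : ℝ) (hq : 0 < q) (m : ℕ) : 0 < gg q x κ M m := by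
  unfold gg; positivity

/-- the entropy gain -/
theorem ent (f k : ℕ) (hf : 1 ≤ f) (hk : 2 * k ≤ f) :
    0.13 * (f : ℝ) ≤ k * Real.log k + (2 * f - k) * Real.log (2 * f - k) - 2 * f * Real.log f := by
  have hf' : (1 : ℝ) ≤ f := by exact_mod_cast hf
  have hk' : 2 * (k : ℝ) ≤ f := by exact_mod_cast hk
  have hk0 : (0 : ℝ) ≤ k := by positivity
  have hg : (0 : ℝ) < 2 * f - k := by linarith
  have h1 : (f : ℝ) - k ≤ (2 * f - k) * (Real.log (2 * f - k) - Real.log f) := by
    have h2 : Real.log (f / (2 * f - k)) ≤ f / (2 * f - k) - 1 :=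
      Real.log_le_sub_one_of_pos (by positivity)
    rw [Real.log_div (by positivity) hg.ne'] at h2
    have h3 : (2 * (f:ℝ) - k) * (Real.log f - Real.log (2 * f - k)) ≤
        (2 * f - k) * (f / (2 * f - k) - 1) := mul_le_mul_of_nonneg_left h2 hg.le
    have h4 : (2 * (f:ℝ) - k) * (f / (2 * f - k) - 1) = k - f := by
      field_simp; ring
    rw [h4] at h3
    linarith
  have h5 : (k : ℝ) * (Real.log f - Real.log k) ≤ 0.368 * f := by
    rcases Nat.eq_zero_or_pos k with h | h
    · subst h; simp; positivity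
    · have hk1 : (0 : ℝ) < k := by exact_mod_cast h
      have he := Real.exp_one_gt_d9
      have h6 : Real.log (f / (Real.exp 1 * k)) ≤ f / (Real.exp 1 * k) - 1 :=
        Real.log_le_sub_one_of_pos (by positivity)
      rw [Real.log_div (by positivity) (by positivity), Real.log_mul (by positivity) hk1.ne',
        Real.log_exp] at h6
      have h7 : (k : ℝ) * (Real.log f - Real.log k) ≤ k * (f / (Real.exp 1 * k)) :=
        mul_le_mul_of_nonneg_left (by linarith) hk1.le
      have h8 : (k : ℝ) * (f / (Real.exp 1 * k)) = f / Real.exp 1 := by field_simp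
      rw [h8] at h7
      refine h7.trans ?_
      rw [div_le_iff₀ (by positivity)]
      nlinarith
  nlinarith

theorem k_le (q x κ M b : ℝ) (f k : ℕ) (hq : 0 < q) (hf1 : 1 ≤ f) (hkf : k ≤ f) (hκ : 0 < κ)
    (hb0 : 0 < b) (hx : x = Real.log (100 * b)) (hM : (f : ℝ) ≤ M)
    (h12 : gg q x κ M f ^ 2 ≤
      6 * b ^ k * (gg q x κ M (2 * f - k) * q ^ k) * (f.choose k : ℝ) ^ 2) : 2 * k ≤ f := by
  have hf1' : (1 : ℝ) ≤ f := by exact_mod_cast hf1
  have hcast : ((2 * f - k : ℕ) : ℝ) = 2 * (f : ℝ) - k := by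
    rw [Nat.cast_sub (by omega)]; push_cast; ring
  have hqq : q ^ k * q ^ (2 * f - k) = (q ^ f) ^ 2 := by
    rw [← pow_add, ← pow_mul]; congr 1; omega
  have hq2 : (0:ℝ) < (q ^ f) ^ 2 := by positivity
  have hfM : Real.log f ≤ Real.log M := Real.log_le_log (by linarith) hM
  have hkf' : (k : ℝ) ≤ f := by exact_mod_cast hkf
  have hlog2 : Real.log f ≤ Real.log (2 * f - k) := Real.log_le_log (by linarith) (by linarith)
  have e1 : gg q x κ M f ^ 2 = (q ^ f) ^ 2 *
      Real.exp (2 * (x * f + κ * (f * (Real.log M - Real.log f)))) := by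
    unfold gg
    rw [mul_pow, ← Real.exp_nat_mul]
    congr 2
  by_contra hcon
  push Not at hcon
  have hk1 : 1 ≤ k := by omega
  have e2 : gg q x κ M (2 * f - k) * q ^ k = (q ^ f) ^ 2 *
      Real.exp (x * (2 * f - k) + κ * ((2 * f - k) * (Real.log M - Real.log (2 * f - k)))) := by
    unfold gg
    rw [hcast, ← hqq]; ring
  rw [e1, e2] at h12
  have h21 : (q ^ f) ^ 2 * Real.exp (2 * (x * f + κ * (f * (Real.log M - Real.log f)))) ≤
      (q ^ f) ^ 2 * (6 * b ^ k * Real.exp (x * (2 * f - k) +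
        κ * ((2 * f - k) * (Real.log M - Real.log (2 * f - k)))) * (f.choose k : ℝ) ^ 2) := by
    refine h12.trans (le_of_eq ?_); ring
  have h22 := le_of_mul_le_mul_left h21 hq2
  have h23 : Real.exp (x * k) * Real.exp (x * (2 * f - k) +
        κ * ((2 * f - k) * (Real.log M - Real.log (2 * f - k)))) ≤
      Real.exp (2 * (x * f + κ * (f * (Real.log M - Real.log f)))) := by
    rw [← Real.exp_add]
    apply Real.exp_le_exp.2
    have h24 : (2 * (f:ℝ) - k) * Real.log f ≤ (2 * f - k) * Real.log (2 * f - k) :=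
      mul_le_mul_of_nonneg_left hlog2 (by linarith)
    have h25 : (k:ℝ) * Real.log f ≤ k * Real.log M :=
      mul_le_mul_of_nonneg_left hfM (by positivity)
    have h26 : (2 * (f:ℝ) - k) * (Real.log M - Real.log (2 * f - k)) ≤
        2 * (f * (Real.log M - Real.log f)) := by linarith
    have h27 := mul_le_mul_of_nonneg_left h26 hκ.le
    linarith
  have h28 : Real.exp (x * k) ≤ 6 * b ^ k * (f.choose k : ℝ) ^ 2 := by
    have h29 := h23.trans h22
    have h30 : Real.exp (x * k) * Real.exp (x * (2 * f - k) +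
        κ * ((2 * f - k) * (Real.log M - Real.log (2 * f - k)))) ≤
        (6 * b ^ k * (f.choose k : ℝ) ^ 2) * Real.exp (x * (2 * f - k) +
        κ * ((2 * f - k) * (Real.log M - Real.log (2 * f - k)))) := by
      refine h29.trans (le_of_eq ?_); ring
    exact le_of_mul_le_mul_right h30 (Real.exp_pos _)
  have h31 : Real.exp (x * k) = (100 * b) ^ k := by
    rw [mul_comm, Real.exp_nat_mul, hx, Real.exp_log (by positivity)]
  rw [h31, mul_pow] at h28
  have h32 : (100:ℝ) ^ k ≤ 6 * (f.choose k : ℝ) ^ 2 := by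
    have : b ^ k * (100:ℝ) ^ k ≤ b ^ k * (6 * (f.choose k : ℝ) ^ 2) := by
      refine le_trans (le_of_eq ?_) (h28.trans (le_of_eq ?_)) <;> ring
    exact le_of_mul_le_mul_left this (by positivity)
  have h33 : (f.choose k : ℝ) ≤ 4 ^ k := by
    have h34 : f.choose k ≤ 2 ^ f := Nat.choose_le_two_pow f k
    have h35 : 2 ^ f ≤ 2 ^ (2 * k) := Nat.pow_le_pow_right (by norm_num) (by omega)
    have h36 : f.choose k ≤ 4 ^ k := by
      refine (h34.trans h35).trans (le_of_eq ?_)
      rw [pow_mul]; norm_num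
    exact_mod_cast h36
  have h37 : (f.choose k : ℝ) ^ 2 ≤ 16 ^ k := by
    refine (pow_le_pow_left₀ (by positivity) h33 2).trans (le_of_eq ?_)
    rw [← pow_mul, mul_comm k 2, pow_mul]; norm_num
  have h38 : (100:ℝ) ^ k = 6.25 ^ k * 16 ^ k := by rw [← mul_pow]; norm_num
  have h39 : (6.25:ℝ) ≤ 6.25 ^ k := by
    have := pow_le_pow_right₀ (by norm_num : (1:ℝ) ≤ 6.25) hk1
    simpa using this
  have h40 : (0:ℝ) < 16 ^ k := by positivity
  nlinarith

theorem fin (q x κ M b : ℝ) (f k : ℕ) (hq : 0 < q) (hf1 : 1 ≤ f) (hkf : k ≤ f) (hκ : 0 < κ)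
    (hb0 : 0 < b) (hb : 24 ≤ κ * b) (h20 : 2 * k ≤ f)
    (h9 : gg q x κ M f ^ 2 ≤ gg q x κ M k * gg q x κ M (2 * f - k) *
      Real.exp (2 * (k + 1) * (1 / b))) : False := by
  have hf1' : (1 : ℝ) ≤ f := by exact_mod_cast hf1
  have hcast : ((2 * f - k : ℕ) : ℝ) = 2 * (f : ℝ) - k := by
    rw [Nat.cast_sub (by omega)]; push_cast; ring
  have hqq : q ^ k * q ^ (2 * f - k) = (q ^ f) ^ 2 := by
    rw [← pow_add, ← pow_mul]; congr 1; omega
  have hq2 : (0:ℝ) < (q ^ f) ^ 2 := by positivity
  have e1 : gg q x κ M f ^ 2 = (q ^ f) ^ 2 *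
      Real.exp (2 * (x * f + κ * (f * (Real.log M - Real.log f)))) := by
    unfold gg
    rw [mul_pow, ← Real.exp_nat_mul]
    congr 2
  have h41 := ent f k hf1 h20
  have e3 : gg q x κ M k * gg q x κ M (2 * f - k) *
      Real.exp (2 * (k + 1) * (1 / b)) = (q ^ f) ^ 2 *
      Real.exp ((x * k + κ * (k * (Real.log M - Real.log k))) + (x * (2 * f - k) +
        κ * ((2 * f - k) * (Real.log M - Real.log (2 * f - k)))) + 2 * (k + 1) * (1 / b)) := by
    have e4 : ∀ A B C : ℝ, Real.exp (A + B + C) = Real.exp A * Real.exp B * Real.exp C := by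
      intro A B C; rw [Real.exp_add, Real.exp_add]
    unfold gg
    rw [hcast, ← hqq, e4]; ring
  rw [e1, e3] at h9
  have h42 := Real.exp_le_exp.1 (le_of_mul_le_mul_left h9 hq2)
  have h43 : κ * (k * Real.log k + (2 * f - k) * Real.log (2 * f - k) - 2 * f * Real.log f) ≤
      2 * (k + 1) * (1 / b) := by linarith
  have h44 : κ * (0.13 * (f:ℝ)) ≤ 2 * (k + 1) * (1 / b) :=
    (mul_le_mul_of_nonneg_left h41 hκ.le).trans h43
  have h45 : κ * (0.13 * (f:ℝ)) * b ≤ 2 * (k + 1) := by
    have := mul_le_mul_of_nonneg_right h44 hb0.le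
    refine this.trans (le_of_eq ?_)
    field_simp
  have h46 : 2 * (k:ℝ) ≤ f := by exact_mod_cast h20
  have h47 : 24 * (0.13 * (f:ℝ)) ≤ κ * b * (0.13 * (f:ℝ)) :=
    mul_le_mul_of_nonneg_right hb (by positivity)
  nlinarith

section Act2
variable {X G : Type} [Fintype X] [Group G] [Fintype G] (a : G →* Equiv.Perm X)

theorem no_max (q : ℝ) (hq : 0 < q) (H F : Finset X) (hH : Hyp a q H) (hFH : F ⊆ H)
    (hF : F.Nonempty) (ρ : ℝ) (hρ : 1 ≤ ρ) (b κ M : ℝ) (hκ : 0 < κ) (hb2 : 2 ≤ b)
    (hb : 24 ≤ κ * b) (hM : (F.card : ℝ) ≤ M)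
    (hPF : P a H F = ρ * gg q (Real.log (100 * b)) κ M F.card)
    (hw : ∀ U, P a H U ≤ ρ * gg q (Real.log (100 * b)) κ M U.card) : False := by
  set x := Real.log (100 * b) with hx
  set f := F.card with hf
  have hf1 : 1 ≤ f := Finset.card_pos.2 hF
  have hf1' : (1 : ℝ) ≤ f := by exact_mod_cast hf1
  have hG : (0:ℝ) < (Fintype.card G : ℝ) := cardG_pos
  have hb0 : 0 < b := by linarith
  have hgg := fun m => gg_pos q x κ M hq m
  obtain ⟨k, hk, hmax⟩ := Finset.exists_max_image (range (f + 1))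
    (fun m => AA a H F m * b ^ m) ⟨0, by simp⟩
  have hkf : k ≤ f := by rw [Finset.mem_range] at hk; omega
  have hsum := sum_AA a H F
  have hP2 : (0:ℝ) < (Fintype.card G * P a H F) ^ 2 := by
    rw [hPF]
    have := hgg f
    positivity
  -- S2
  have hA : ∀ j ∈ range (f + 1), AA a H F j ≤ AA a H F k * b ^ k * (1 / b) ^ j := by
    intro j hj
    have := hmax j hj
    rw [one_div_pow, mul_one_div, le_div_iff₀ (by positivity)]
    exact this
  have hinv0 : 0 < 1 / b := by positivity
  have hinv : 1 / b ≤ 1 / 2 := one_div_le_one_div_of_le (by norm_num) hb2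
  have hAk0 := AA_nonneg a H F k
  -- S3
  have h3 : (Fintype.card G * P a H F) ^ 2 ≤ 3 * (AA a H F k * b ^ k) := by
    rw [← hsum]
    refine (Finset.sum_le_sum hA).trans ?_
    rw [← Finset.mul_sum]
    have h4 := geo (1 / b) hinv0 hinv 0 (f + 1)
    simp only [Nat.choose_zero_right, Nat.cast_one, one_mul, pow_zero, Nat.cast_zero, zero_add,
      mul_one] at h4
    have h5 : Real.exp (2 * (1 / b)) ≤ 3 := by
      refine (Real.exp_le_exp.2 (by linarith : 2 * (1 / b) ≤ 1)).trans ?_
      have := Real.exp_one_lt_d9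
      linarith
    have h6 : ∑ i ∈ range (f + 1), (1 / b) ^ i ≤ 3 := h4.trans h5
    have h7 : 0 ≤ AA a H F k * b ^ k := by positivity
    nlinarith
  have hAk : 0 < AA a H F k := by
    rcases hAk0.lt_or_eq with h | h
    · exact h
    · rw [← h] at h3; linarith
  -- S4
  have h4 := AA_le a H F k (fun m => ρ * gg q x κ M m) hw
    (fun j => by have := hgg j; positivity)
  rw [← hf] at h4
  have hg2 := hgg (2 * f - k)
  have hBk : 0 < BB a F k := by
    rcases (BB_nonneg a F k).lt_or_eq with h | h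
    · exact h
    · rw [← h, mul_zero] at h4; linarith
  -- S5
  have h5 := key a H F k (fun m => ρ * gg q x κ M m) hw
  rw [← hf] at h5
  have hgk := hgg k
  have h6 : ∑ j ∈ range (f + 1), (j.choose k : ℝ) * AA a H F j ≤
      AA a H F k * Real.exp (2 * (k + 1) * (1 / b)) := by
    have h7 : ∀ j ∈ range (f + 1), (j.choose k : ℝ) * AA a H F j ≤
        AA a H F k * b ^ k * ((j.choose k : ℝ) * (1 / b) ^ j) := by
      intro j hj
      have := mul_le_mul_of_nonneg_left (hA j hj) (by positivity : (0:ℝ) ≤ (j.choose k : ℝ))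
      refine this.trans (le_of_eq ?_)
      ring
    refine (Finset.sum_le_sum h7).trans ?_
    rw [← Finset.mul_sum]
    have h8 := geo (1 / b) hinv0 hinv k (f + 1)
    refine (mul_le_mul_of_nonneg_left h8 (by positivity)).trans (le_of_eq ?_)
    rw [one_div_pow]
    field_simp
  set E := Real.exp (2 * (k + 1) * (1 / b)) with hE
  have hE0 : 0 < E := Real.exp_pos _
  have h9 : gg q x κ M f ^ 2 ≤ gg q x κ M k * gg q x κ M (2 * f - k) * E := by
    have h10 : (Fintype.card G * P a H F) ^ 2 * BB a F k ≤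
        (Fintype.card G : ℝ) ^ 2 * (ρ * gg q x κ M k) *
          (ρ * gg q x κ M (2 * f - k) * BB a F k * E) := by
      refine h5.trans ?_
      apply mul_le_mul_of_nonneg_left _ (by positivity)
      refine h6.trans ?_
      exact mul_le_mul_of_nonneg_right h4 hE0.le
    rw [hPF] at h10
    have h11 : ((Fintype.card G : ℝ) ^ 2 * ρ ^ 2 * BB a F k) * gg q x κ M f ^ 2 ≤
        ((Fintype.card G : ℝ) ^ 2 * ρ ^ 2 * BB a F k) *
          (gg q x κ M k * gg q x κ M (2 * f - k) * E) := by
      refine le_trans (le_of_eq ?_) (h10.trans (le_of_eq ?_)) <;> ring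
    exact le_of_mul_le_mul_left h11 (by positivity)
  -- S6
  have h12 : gg q x κ M f ^ 2 ≤
      6 * b ^ k * (gg q x κ M (2 * f - k) * q ^ k) * (f.choose k : ℝ) ^ 2 := by
    have h13 := BB_le a q hq F (hH.mono a hFH) k
    rw [← hf] at h13
    have h14 : (Fintype.card G * P a H F) ^ 2 ≤ 3 * (b ^ k * (ρ * gg q x κ M (2 * f - k) *
        (2 * (Fintype.card G : ℝ) ^ 2 * (f.choose k : ℝ) ^ 2 * q ^ k))) := by
      refine h3.trans ?_
      have h15 : AA a H F k ≤ ρ * gg q x κ M (2 * f - k) *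
        (2 * (Fintype.card G : ℝ) ^ 2 * (f.choose k : ℝ) ^ 2 * q ^ k) :=
        h4.trans (mul_le_mul_of_nonneg_left h13 (by positivity))
      have h16 : (0:ℝ) < b ^ k := by positivity
      nlinarith
    rw [hPF] at h14
    have h17 : ((Fintype.card G : ℝ) ^ 2 * ρ) * (ρ * gg q x κ M f ^ 2) ≤
        ((Fintype.card G : ℝ) ^ 2 * ρ) *
        (6 * b ^ k * (gg q x κ M (2 * f - k) * q ^ k) * (f.choose k : ℝ) ^ 2) := by
      refine le_trans (le_of_eq ?_) (h14.trans (le_of_eq ?_)) <;> ring
    have h18 := le_of_mul_le_mul_left h17 (by positivity)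
    have h19 : 0 < gg q x κ M f ^ 2 := by have := hgg f; positivity
    nlinarith
  have h20 := k_le q x κ M b f k hq hf1 hkf hκ hb0 hx hM h12
  exact fin q x κ M b f k hq hf1 hkf hκ hb0 hb h20 h9

/-- The spread bound with a single logarithm. -/
theorem spread_log (q : ℝ) (hq : 0 < q) (H : Finset X) (hH : Hyp a q H) (U : Finset X)
    (hU : U ⊆ H) : P a H U ≤ (7000 * (1 + Real.log H.card) * q) ^ U.card := by
  rcases H.eq_empty_or_nonempty with hne | hne
  · subst hne
    rw [Finset.subset_empty] at hU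
    subst hU
    simp [P_empty]
  have hh1 : (1:ℝ) ≤ H.card := by exact_mod_cast Finset.card_pos.2 hne
  have hlogh : 0 ≤ Real.log H.card := Real.log_nonneg hh1
  set ℓ : ℝ := 1 + Real.log H.card with hℓ
  have hℓ1 : 1 ≤ ℓ := by linarith
  have hℓ0 : 0 < ℓ := by linarith
  set b : ℝ := 24 * ℓ with hb
  set M : ℝ := (H.card : ℝ) with hM
  set x := Real.log (100 * b) with hx
  obtain ⟨F, hF, hmax⟩ := Finset.exists_max_image H.powerset
    (fun U => P a H U / gg q x (1 / ℓ) M U.card) ⟨∅, by simp⟩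
  rw [Finset.mem_powerset] at hF
  have hgg := fun m => gg_pos q x (1 / ℓ) M hq m
  set ρ := P a H F / gg q x (1 / ℓ) M F.card with hρ
  have hg0 : gg q x (1 / ℓ) M 0 = 1 := by unfold gg; simp
  have hρ1 : 1 ≤ ρ := by
    have := hmax ∅ (by simp)
    rw [P_empty, Finset.card_empty, hg0] at this
    simpa using this
  have hle : ∀ U ⊆ H, P a H U ≤ ρ * gg q x (1 / ℓ) M U.card := by
    intro U hU
    have := hmax U (Finset.mem_powerset.2 hU)
    rwa [div_le_iff₀ (hgg _)] at this
  have hle' : ∀ U, P a H U ≤ ρ * gg q x (1 / ℓ) M U.card := by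
    intro U
    by_cases hU : ∃ g : G, im a g U ⊆ H
    · obtain ⟨g, hg⟩ := hU
      have := hle _ hg
      rwa [P_im_right, card_im] at this
    · have : ¬ 0 < P a H U := by rw [P_pos_iff]; exact hU
      have h0 : P a H U = 0 := le_antisymm (not_lt.1 this) (P_nonneg a H U)
      have := hgg U.card
      rw [h0]; positivity
  rcases F.eq_empty_or_nonempty with hF0 | hF0
  · have h1 : ρ = 1 := by
      rw [hρ, hF0, P_empty, Finset.card_empty, hg0, div_one]
    have h2 := hle' U
    rw [h1, one_mul] at h2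
    refine h2.trans ?_
    unfold gg
    rw [mul_comm _ q, mul_pow]
    apply mul_le_mul_of_nonneg_left _ (by positivity)
    rcases Nat.eq_zero_or_pos U.card with h0 | h0
    · rw [h0]; simp
    have hU1 : (1:ℝ) ≤ U.card := by exact_mod_cast h0
    have hU2 : 0 ≤ Real.log U.card := Real.log_nonneg hU1
    have h3 : x * U.card + 1 / ℓ * (U.card * (Real.log M - Real.log U.card)) ≤
        U.card * (x + 1) := by
      have h4 : 1 / ℓ * (U.card * (Real.log M - Real.log U.card)) ≤ U.card := by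
        rw [one_div, inv_mul_le_iff₀ hℓ0]
        nlinarith
      linarith
    refine (Real.exp_le_exp.2 h3).trans ?_
    rw [Real.exp_nat_mul]
    apply pow_le_pow_left₀ (by positivity)
    rw [Real.exp_add, hx, Real.exp_log (by positivity)]
    have := Real.exp_one_lt_d9
    rw [hb]
    nlinarith
  · exfalso
    refine no_max a q hq H F hH hF hF0 ρ hρ1 b (1 / ℓ) M (by positivity) (by linarith) ?_ ?_ ?_ hle'
    · rw [hb]; field_simp; norm_num
    · rw [hM]; exact_mod_cast Finset.card_le_card hF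
    · rw [← hx, hρ, div_mul_cancel₀ _ (hgg F.card).ne']

end Act2

end Vale.Agent.H4.P064
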